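import Vale.Agent.Lib.Helper8.Snaky.Bands

namespace Vale.Agent.Results.P062.BreakerBands

open Vale.Agent.Lib.Helper8.Snaky

/-- In the Snaky achievement game on the whole plane `ℤ × ℤ` (Maker moves first, no handicap),
Breaker has a legal strategy `τ` (a function of the list of all earlier moves) such that in
every play `m` (`m 0, m 2, …` Maker's cells, `m 1, m 3, …` Breaker's cells, all distinct) in
which Breaker follows `τ`, every allowed copy of Snaky that Maker ever owns completely is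
neither contained in two consecutive rows nor in one of the bands `5 j ≤ y < 5 j + 5`. -/
theorem result : ∃ τ : List (ℤ × ℤ) → ℤ × ℤ,
    (∀ h : List (ℤ × ℤ), h.Nodup → τ h ∉ h) ∧
    ∀ m : ℕ → ℤ × ℤ, Function.Injective m →
      (∀ k, m (2 * k + 1) = τ ((List.range (2 * k + 1)).map m)) →
      ∀ C : Finset (ℤ × ℤ), IsCopy C → (∀ p ∈ C, ∃ k, m (2 * k) = p) →
        (¬ ∃ y : ℤ, ∀ p ∈ C, p.2 = y ∨ p.2 = y + 1) ∧
        (¬ ∃ j : ℤ, ∀ p ∈ C, 5 * j ≤ p.2 ∧ p.2 < 5 * j + 5) := by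
  refine ⟨pairingStrategy mate, fun h _ => pairingStrategy_legal mate h, ?_⟩
  intro m hm hτ C hC hown
  have key : ¬ ((∃ y : ℤ, ∀ p ∈ C, p.2 = y ∨ p.2 = y + 1) ∨
      (∃ j : ℤ, ∀ p ∈ C, 5 * j ≤ p.2 ∧ p.2 < 5 * j + 5)) := by
    intro h
    obtain ⟨p, hp, hq, hne⟩ := copy_has_pair C hC h
    obtain ⟨k, hk⟩ := hown p hp
    obtain ⟨l, hl⟩ := hown (mate p) hq
    exact pairing_blocks mate mate_mate m hm hτ p hne k l hk hl
  exact ⟨fun h => key (Or.inl h), fun h => key (Or.inr h)⟩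

end Vale.Agent.Results.P062.BreakerBands
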