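import Vale.Agent.Lib.Helper8.Snaky.Board6
import Vale.Agent.Lib.Helper8.Snaky.Strip

namespace Vale.Agent.Results.P062.PairingBoards

open Vale.Agent.Lib.Helper8.Snaky

/-- Classification of the rectangular boards and of the infinite strips on which Breaker has a
pairing strategy for Snaky: the `m × n` board `{0, …, m-1} × {0, …, n-1}` admits one exactly when
`m ≤ 5` or `n ≤ 5`, and the strip `ℤ × {0, …, n-1}` admits one exactly when `n ≤ 5`. -/
theorem result :
    (∀ m n : ℕ, (∃ P, IsPairing {p : ℤ × ℤ | 0 ≤ p.1 ∧ p.1 < m ∧ 0 ≤ p.2 ∧ p.2 < n} P) ↔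
      (m ≤ 5 ∨ n ≤ 5)) ∧
    (∀ n : ℕ, (∃ P, IsPairing {p : ℤ × ℤ | 0 ≤ p.2 ∧ p.2 < n} P) ↔ n ≤ 5) := by
  constructor
  · intro m n
    constructor
    · rintro ⟨P, hP⟩
      by_contra hmn
      have hm : 6 ≤ m := by omega
      have hn : 6 ≤ n := by omega
      refine no_pairing6 _ ?_ P hP
      intro p h1 h2 h3 h4
      have hm' : (6 : ℤ) ≤ m := by exact_mod_cast hm
      have hn' : (6 : ℤ) ≤ n := by exact_mod_cast hn
      exact ⟨h1, by omega, h3, by omega⟩
    · rintro (hm | hn)
      · apply pairing_cols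
        rintro p ⟨h1, h2, _, _⟩
        have hm' : (m : ℤ) ≤ 5 := by exact_mod_cast hm
        exact ⟨h1, by omega⟩
      · apply pairing_rows
        rintro p ⟨_, _, h3, h4⟩
        have hn' : (n : ℤ) ≤ 5 := by exact_mod_cast hn
        exact ⟨h3, by omega⟩
  · intro n
    constructor
    · rintro ⟨P, hP⟩
      by_contra hn
      have hn6 : 6 ≤ n := by omega
      refine no_pairing6 _ ?_ P hP
      intro p _ _ h3 h4
      have hn' : (6 : ℤ) ≤ n := by exact_mod_cast hn6
      exact ⟨h3, by omega⟩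
    · intro hn
      apply pairing_rows
      rintro p ⟨h3, h4⟩
      have hn' : (n : ℤ) ≤ 5 := by exact_mod_cast hn
      exact ⟨h3, by omega⟩

end Vale.Agent.Results.P062.PairingBoards
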